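import Vale.Agent.H24.GSH.Defs

namespace Vale.Agent.H18.P329
open Vale.Agent.H24.GSH

section gen
variable {α Q : Type}

theorem run_append (δ : Q → α → Option Q) (q : Q) (u v : List α) :
    run δ q (u ++ v) = (run δ q u).bind fun q' => run δ q' v := by
  induction u generalizing q with
  | nil => simp [run]
  | cons a u ih =>
    simp only [List.cons_append, run]
    cases h : δ q a with
    | none => simp
    | some p => simp [ih]

theorem run_single (δ : Q → α → Option Q) (q : Q) (b : α) : run δ q [b] = δ q b := by
  simp only [run]
  cases h : δ q b <;> simp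

theorem run_mono [LinearOrder Q] (δ : Q → α → Option Q) (hm : Mono δ) (w : List α) :
    ∀ p q p' q', p < q → run δ p w = some p' → run δ q w = some q' → p' < q' := by
  induction w with
  | nil =>
    intro p q p' q' h h1 h2
    simp only [run, Option.some.injEq] at h1 h2
    subst h1; subst h2; exact h
  | cons a w ih =>
    intro p q p' q' h h1 h2
    simp only [run, Option.bind_eq_some_iff] at h1 h2
    obtain ⟨p1, hp1, hp2⟩ := h1
    obtain ⟨q1, hq1, hq2⟩ := h2
    exact ih p1 q1 p' q' (hm a p q p1 q1 h hp1 hq1) hp2 hq2

/-- concatenation of the blocks `u b` -/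
def flat (b : α) (l : List (List α)) : List α := (l.map (· ++ [b])).flatten

@[simp] theorem flat_nil (b : α) : flat b [] = [] := rfl
@[simp] theorem flat_cons (b : α) (u : List α) (l : List (List α)) :
    flat b (u :: l) = u ++ (b :: flat b l) := by simp [flat]
theorem flat_append (b : α) (l l' : List (List α)) :
    flat b (l ++ l') = flat b l ++ flat b l' := by simp [flat]

/-- all letters in `A` -/
def Ov (A : Set α) (w : List α) : Prop := ∀ a ∈ w, a ∈ A

theorem decomp (b : α) (B : Set α) (w : List α) (hw : Ov B w) :
    ∃ l : List (List α), ∃ v : List α, (∀ u ∈ l, Ov (B \ {b}) u) ∧ Ov (B \ {b}) v ∧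
      w = flat b l ++ v := by
  induction w with
  | nil => exact ⟨[], [], by simp, by intro a ha; simp at ha, rfl⟩
  | cons a w ih =>
    obtain ⟨l, v, hl, hv, rfl⟩ := ih (fun x hx => hw x (List.mem_cons_of_mem _ hx))
    by_cases hab : a = b
    · subst hab
      refine ⟨[] :: l, v, ?_, hv, by simp⟩
      intro u hu
      rcases List.mem_cons.1 hu with rfl | hu
      · intro x hx; simp at hx
      · exact hl u hu
    · have haA : a ∈ B \ {b} := ⟨hw a (by simp), hab⟩
      cases l with
      | nil =>
        refine ⟨[], a :: v, by simp, ?_, by simp⟩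
        intro x hx
        rcases List.mem_cons.1 hx with rfl | hx
        · exact haA
        · exact hv x hx
      | cons u l =>
        refine ⟨(a :: u) :: l, v, ?_, hv, by simp⟩
        intro y hy
        rcases List.mem_cons.1 hy with rfl | hy
        · intro x hx
          rcases List.mem_cons.1 hx with rfl | hx
          · exact haA
          · exact hl u (by simp) x hx
        · exact hl y (List.mem_cons_of_mem _ hy)

theorem split_inj (b : α) : ∀ (u u' r r' : List α), b ∉ u → b ∉ u' →
    u ++ b :: r = u' ++ b :: r' → u = u' ∧ r = r' := by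
  intro u
  induction u with
  | nil =>
    intro u' r r' _ h2 h
    cases u' with
    | nil => simpa using h
    | cons a u' =>
      simp only [List.nil_append, List.cons_append, List.cons.injEq] at h
      exact absurd (by simp [h.1]) h2
  | cons a u ih =>
    intro u' r r' h1 h2 h
    cases u' with
    | nil =>
      simp only [List.nil_append, List.cons_append, List.cons.injEq] at h
      exact absurd (by simp [h.1]) h1
    | cons a' u' =>
      simp only [List.cons_append, List.cons.injEq] at h
      have h3 := ih u' r r' (fun hb => h1 (List.mem_cons_of_mem _ hb))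
        (fun hb => h2 (List.mem_cons_of_mem _ hb)) h.2
      exact ⟨by rw [h.1, h3.1], h3.2⟩

theorem flat_inj (b : α) (A : Set α) (hb : b ∉ A) : ∀ (l l' : List (List α)),
    (∀ u ∈ l, Ov A u) → (∀ u ∈ l', Ov A u) → flat b l = flat b l' → l = l' := by
  intro l
  induction l with
  | nil =>
    intro l' _ _ h
    cases l' with
    | nil => rfl
    | cons u l' => simp at h
  | cons u l ih =>
    intro l' h1 h2 h
    cases l' with
    | nil => simp at h
    | cons u' l' =>
      simp only [flat_cons] at h
      have hu : b ∉ u := fun hbu => hb (h1 u (by simp) b hbu)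
      have hu' : b ∉ u' := fun hbu => hb (h2 u' (by simp) b hbu)
      have h3 := split_inj b u u' _ _ hu hu' h
      have h4 := ih l' (fun x hx => h1 x (List.mem_cons_of_mem _ hx))
        (fun x hx => h2 x (List.mem_cons_of_mem _ hx)) h3.2
      rw [h3.1, h4]

end gen

section pull
variable {α Q : Type} [Finite α] [Finite Q] [LinearOrder Q]

/-- image of the letter `b` -/
abbrev Im (δ : Q → α → Option Q) (b : α) : Type := {q : Q // ∃ p, δ p b = some q}

open Classical in
/-- last letter, with values in the image -/
noncomputable def bet (δ : Q → α → Option Q) (b : α) (p : Q) : Option (Im δ b) :=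
  if h : ∃ r : Im δ b, δ p b = some r.1 then some h.choose else none

theorem bet_spec (δ : Q → α → Option Q) (b : α) (p : Q) (r : Im δ b) :
    bet δ b p = some r ↔ δ p b = some r.1 := by
  unfold bet
  constructor
  · intro h
    split_ifs at h with h1
    rw [← Option.some.inj h]
    exact h1.choose_spec
  · intro h
    have h1 : ∃ r : Im δ b, δ p b = some r.1 := ⟨r, h⟩
    rw [dif_pos h1]
    have h2 := h1.choose_spec
    have h3 : r.1 = h1.choose.1 := Option.some.inj (h.symm.trans h2)
    congr 1
    exact Subtype.ext h3.symm

/-- action of the block `u b` -/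
noncomputable def act (δ : Q → α → Option Q) (b : α) (u : List α) : Im δ b → Option (Im δ b) :=
  fun q => (run δ q.1 u).bind (bet δ b)

theorem act_spec (δ : Q → α → Option Q) (b : α) (u : List α) (q r : Im δ b) :
    act δ b u q = some r ↔ run δ q.1 (u ++ [b]) = some r.1 := by
  unfold act
  rw [run_append, Option.bind_eq_some_iff, Option.bind_eq_some_iff]
  constructor
  · rintro ⟨p, h1, h2⟩
    exact ⟨p, h1, by rw [run_single]; exact (bet_spec δ b p r).1 h2⟩
  · rintro ⟨p, h1, h2⟩
    exact ⟨p, h1, (bet_spec δ b p r).2 (by rwa [run_single] at h2)⟩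

theorem run_b (δ : Q → α → Option Q) (b : α) (u : List α) (q x : Q)
    (h : run δ q (u ++ [b]) = some x) : ∃ r : Im δ b, r.1 = x := by
  rw [run_append, Option.bind_eq_some_iff] at h
  obtain ⟨p, h1, h2⟩ := h
  rw [run_single] at h2
  exact ⟨⟨x, p, h2⟩, rfl⟩

/-- monotone partial maps -/
def MM {P : Type} [LinearOrder P] (g : P → Option P) : Prop :=
  ∀ p q p' q', p < q → g p = some p' → g q = some q' → p' < q'

theorem act_mono (δ : Q → α → Option Q) (hm : Mono δ) (b : α) (u : List α) :
    MM (act δ b u) := by
  intro p q p' q' h h1 h2
  rw [act_spec] at h1 h2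
  exact run_mono δ hm (u ++ [b]) p.1 q.1 p'.1 q'.1 h h1 h2

open Classical in
/-- the automaton on the image -/
noncomputable def dl {P : Type} [LinearOrder P] (q : P) (g : P → Option P) : Option P :=
  if MM g then g q else none

theorem dl_mono {P : Type} [LinearOrder P] : Mono (dl (P := P)) := by
  intro g p q p' q' h h1 h2
  unfold dl at h1 h2
  split_ifs at h1 h2 with hg
  exact hg p q p' q' h h1 h2

theorem sim (δ : Q → α → Option Q) (hm : Mono δ) (b : α) (l : List (List α)) :
    ∀ q r : Im δ b, run dl q (l.map (act δ b)) = some r ↔ run δ q.1 (flat b l) = some r.1 := by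
  induction l with
  | nil =>
    intro q r
    simp only [List.map_nil, flat_nil, run, Option.some.injEq]
    exact Subtype.ext_iff
  | cons u l ih =>
    intro q r
    have e : flat b (u :: l) = (u ++ [b]) ++ flat b l := by simp
    rw [e, run_append, List.map_cons, Option.bind_eq_some_iff]
    simp only [run]
    rw [Option.bind_eq_some_iff]
    have hd : dl q (act δ b u) = act δ b u q := by
      unfold dl; rw [if_pos (act_mono δ hm b u)]
    rw [hd]
    constructor
    · rintro ⟨x, h1, h2⟩
      exact ⟨x.1, (act_spec δ b u q x).1 h1, (ih x r).1 h2⟩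
    · rintro ⟨x, h1, h2⟩
      obtain ⟨y, rfl⟩ := run_b δ b u q.1 x h1
      exact ⟨y, (act_spec δ b u q y).2 h1, (ih y r).2 h2⟩

theorem run_flat (δ : Q → α → Option Q) (b : α) (l : List (List α)) :
    ∀ (q : Im δ b) (x : Q), run δ q.1 (flat b l) = some x → ∃ r : Im δ b, r.1 = x := by
  induction l with
  | nil =>
    intro q x h
    simp only [flat_nil, run, Option.some.injEq] at h
    exact ⟨q, h⟩
  | cons u l ih =>
    intro q x h
    have e : flat b (u :: l) = (u ++ [b]) ++ flat b l := by simp
    rw [e, run_append, Option.bind_eq_some_iff] at h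
    obtain ⟨y, h1, h2⟩ := h
    obtain ⟨z, rfl⟩ := run_b δ b u q.1 y h1
    exact ih z x h2

/-- pull back of a language over the new alphabet -/
def Pb (δ : Q → α → Option Q) (b : α) (A : Set α) (L : Set (List (Im δ b → Option (Im δ b)))) :
    Set (List α) :=
  {w | ∃ l : List (List α), (∀ u ∈ l, Ov A u) ∧ w = flat b l ∧ l.map (act δ b) ∈ L}

theorem base_eq (b : α) (B : Set α) (hb : b ∈ B) :
    {w : List α | ∃ l : List (List α), (∀ u ∈ l, Ov (B \ {b}) u) ∧ w = flat b l} =
      {[]} ∪ cat {w : List α | ∀ a ∈ w, a ∈ B} {[b]} := by
  ext w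
  constructor
  · rintro ⟨l, hl, rfl⟩
    rcases List.eq_nil_or_concat l with rfl | ⟨l', u, rfl⟩
    · left; simp
    · right
      refine ⟨flat b l' ++ u, ?_, [b], rfl, by simp [flat_append]⟩
      intro a ha
      rcases List.mem_append.1 ha with ha | ha
      · unfold flat at ha
        simp only [List.mem_flatten, List.mem_map] at ha
        obtain ⟨_, ⟨v, hv, rfl⟩, ha⟩ := ha
        rcases List.mem_append.1 ha with ha | ha
        · exact (hl v (by simp [hv]) a ha).1
        · rw [List.mem_singleton] at ha; rw [ha]; exact hb
      · exact (hl u (by simp) a ha).1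
  · rintro (h | ⟨w', hw', v, hv, rfl⟩)
    · exact ⟨[], by simp, by simpa using h⟩
    · obtain rfl : v = [b] := hv
      obtain ⟨l, v, hl, hv, rfl⟩ := decomp b B w' hw'
      refine ⟨l ++ [v], ?_, by simp [flat_append]⟩
      intro u hu
      rcases List.mem_append.1 hu with hu | hu
      · exact hl u hu
      · rw [List.mem_singleton] at hu; rw [hu]; exact hv

theorem pb_sf (δ : Q → α → Option Q) (b : α) (B : Set α) (hb : b ∈ B)
    (hA : ∀ i j, H 0 {w : List α | Ov (B \ {b}) w ∧ run δ i w = some j})
    (P : GRE (Im δ b → Option (Im δ b))) (hP : P.sh ≤ 0) :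
    H 0 (Pb δ b (B \ {b}) P.lang) := by
  induction P with
  | zero =>
    have : Pb δ b (B \ {b}) (GRE.lang .zero) = ∅ := by
      ext w; simp [Pb, GRE.lang]
    rw [this]; exact H_empty
  | one =>
    have : Pb δ b (B \ {b}) (GRE.lang .one) = {[]} := by
      ext w
      constructor
      · rintro ⟨l, -, rfl, h⟩
        have h' : l.map (act δ b) = [] := h
        rw [List.map_eq_nil_iff] at h'
        subst h'; simp
      · intro h
        obtain rfl : w = [] := h
        exact ⟨[], by simp, rfl, rfl⟩
    rw [this]; exact H_eps
  | letter x =>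
    have hsome : ∀ q r : Im δ b, H 0 {u : List α | Ov (B \ {b}) u ∧ act δ b u q = some r} := by
      intro q r
      have h := H_iUnion_prop (k := 0) (fun p : Q => δ p b = some r.1)
        (fun p => {u : List α | Ov (B \ {b}) u ∧ run δ q.1 u = some p}) (fun p _ => hA q.1 p)
      convert h using 1
      ext u
      simp only [Set.mem_setOf_eq]
      rw [act_spec, run_append, Option.bind_eq_some_iff]
      constructor
      · rintro ⟨h1, p, h2, h3⟩
        rw [run_single] at h3
        exact ⟨p, h3, h1, h2⟩
      · rintro ⟨p, h3, h1, h2⟩
        exact ⟨h1, p, h2, by rw [run_single]; exact h3⟩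
    have hany : ∀ q : Im δ b, H 0 {u : List α | Ov (B \ {b}) u ∧ act δ b u q = x q} := by
      intro q
      cases hx : x q with
      | some r => exact hsome q r
      | none =>
        have h := (H_over (B \ {b})).inter (H_iUnion (k := 0)
          (fun r => {u : List α | Ov (B \ {b}) u ∧ act δ b u q = some r}) (hsome q)).compl
        convert h using 1
        ext u
        simp only [Set.mem_setOf_eq, Set.mem_inter_iff, Set.mem_compl_iff, Set.mem_iUnion,
          not_exists, not_and]
        constructor
        · rintro ⟨h1, h2⟩
          exact ⟨h1, fun r _ h3 => by rw [h2] at h3; cases h3⟩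
        · rintro ⟨h1, h2⟩
          refine ⟨h1, ?_⟩
          cases h3 : act δ b u q with
          | none => rfl
          | some r => exact absurd h3 (h2 r h1)
    have hlet : H 0 {u : List α | Ov (B \ {b}) u ∧ act δ b u = x} := by
      have h := (H_over (B \ {b})).inter (H_iInter (k := 0)
        (fun q : Im δ b => {u : List α | Ov (B \ {b}) u ∧ act δ b u q = x q}) hany)
      convert h using 1
      ext u
      simp only [Set.mem_setOf_eq, Set.mem_inter_iff, Set.mem_iInter]
      constructor
      · rintro ⟨h1, h2⟩
        exact ⟨h1, fun q => ⟨h1, by rw [h2]⟩⟩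
      · rintro ⟨h1, h2⟩
        exact ⟨h1, funext fun q => (h2 q).2⟩
    have : Pb δ b (B \ {b}) (GRE.lang (.letter x)) =
        cat {u : List α | Ov (B \ {b}) u ∧ act δ b u = x} {[b]} := by
      ext w
      constructor
      · rintro ⟨l, hl, rfl, h⟩
        have h' : l.map (act δ b) = [x] := h
        rw [List.map_eq_singleton_iff] at h'
        obtain ⟨u, rfl, hu⟩ := h'
        exact ⟨u, ⟨hl u (by simp), hu⟩, [b], rfl, by simp⟩
      · rintro ⟨u, ⟨h1, h2⟩, v, hv, rfl⟩
        obtain rfl : v = [b] := hv
        refine ⟨[u], by simpa using h1, by simp, ?_⟩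
        show List.map (act δ b) [u] = [x]
        simp [h2]
    rw [this]
    exact hlet.cat (H_letter b)
  | add P1 P2 ih1 ih2 =>
    simp only [GRE.sh] at hP
    have : Pb δ b (B \ {b}) (GRE.lang (.add P1 P2)) =
        Pb δ b (B \ {b}) P1.lang ∪ Pb δ b (B \ {b}) P2.lang := by
      ext w
      constructor
      · rintro ⟨l, h1, h2, h3 | h3⟩
        · exact Or.inl ⟨l, h1, h2, h3⟩
        · exact Or.inr ⟨l, h1, h2, h3⟩
      · rintro (⟨l, h1, h2, h3⟩ | ⟨l, h1, h2, h3⟩)
        · exact ⟨l, h1, h2, Or.inl h3⟩
        · exact ⟨l, h1, h2, Or.inr h3⟩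
    rw [this]
    exact (ih1 (by omega)).union (ih2 (by omega))
  | mul P1 P2 ih1 ih2 =>
    simp only [GRE.sh] at hP
    have : Pb δ b (B \ {b}) (GRE.lang (.mul P1 P2)) =
        cat (Pb δ b (B \ {b}) P1.lang) (Pb δ b (B \ {b}) P2.lang) := by
      ext w
      constructor
      · rintro ⟨l, h1, rfl, W1, hW1, W2, hW2, h3⟩
        rw [List.map_eq_append_iff] at h3
        obtain ⟨l1, l2, rfl, rfl, rfl⟩ := h3
        exact ⟨flat b l1, ⟨l1, fun u hu => h1 u (by simp [hu]), rfl, hW1⟩, flat b l2,
          ⟨l2, fun u hu => h1 u (by simp [hu]), rfl, hW2⟩, flat_append b l1 l2⟩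
      · rintro ⟨w1, ⟨l1, h1, rfl, h2⟩, w2, ⟨l2, h3, rfl, h4⟩, rfl⟩
        refine ⟨l1 ++ l2, ?_, (flat_append b l1 l2).symm, l1.map (act δ b), h2,
          l2.map (act δ b), h4, by simp⟩
        intro u hu
        rcases List.mem_append.1 hu with hu | hu
        · exact h1 u hu
        · exact h3 u hu
    rw [this]
    exact (ih1 (by omega)).cat (ih2 (by omega))
  | compl P1 ih1 =>
    simp only [GRE.sh] at hP
    have : Pb δ b (B \ {b}) (GRE.lang (.compl P1)) =
        {w : List α | ∃ l : List (List α), (∀ u ∈ l, Ov (B \ {b}) u) ∧ w = flat b l} ∩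
          (Pb δ b (B \ {b}) P1.lang)ᶜ := by
      ext w
      constructor
      · rintro ⟨l, h1, rfl, h3⟩
        refine ⟨⟨l, h1, rfl⟩, ?_⟩
        rintro ⟨l', h4, h5, h6⟩
        have := flat_inj b (B \ {b}) (by simp) l l' h1 h4 h5
        subst this
        exact h3 h6
      · rintro ⟨⟨l, h1, rfl⟩, h2⟩
        exact ⟨l, h1, rfl, fun h3 => h2 ⟨l, h1, rfl, h3⟩⟩
    rw [this, base_eq b B hb]
    exact (H_eps.union ((H_over B).cat (H_letter b))).inter (ih1 hP).compl
  | star P1 ih1 => simp only [GRE.sh] at hP; omega

theorem total_id (f : Q → Q) (hf : StrictMono f) (x : Q) : f x = x :=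
  le_antisymm hf.apply_le hf.le_apply

end pull

theorem main (n : ℕ) : ∀ (m : ℕ) (α Q : Type) [Finite α] [Fintype Q] [LinearOrder Q]
    (δ : Q → α → Option Q) (_ : Mono δ) (B : Set α) (_ : Set.ncard B = m)
    (_ : Fintype.card Q = n) (i j : Q), H 0 {w : List α | Ov B w ∧ run δ i w = some j} := by
  induction n using Nat.strong_induction_on with
  | _ n ihn =>
    intro m
    induction m using Nat.strong_induction_on with
    | _ m ihm =>
      intro α Q _ _ _ δ hm B hB hQ i j
      by_cases hall : ∀ b ∈ B, ∀ q, ∃ r, δ q b = some r
      · -- all letters total: identity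
        have hid : ∀ b ∈ B, ∀ q, δ q b = some q := by
          intro b hb q
          choose f hf using hall b hb
          have hsm : StrictMono f := fun p q hpq => hm b p q (f p) (f q) hpq (hf p) (hf q)
          rw [hf q, total_id f hsm q]
        have hrun : ∀ w : List α, Ov B w → ∀ i, run δ i w = some i := by
          intro w
          induction w with
          | nil => intro _ i; rfl
          | cons a w ih =>
            intro hw i
            simp only [run]
            rw [hid a (hw a (by simp)) i]
            simpa using ih (fun x hx => hw x (List.mem_cons_of_mem _ hx)) i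
        by_cases hij : i = j
        · subst hij
          convert H_over B using 1
          ext w
          exact ⟨fun h => h.1, fun h => ⟨h, hrun w h i⟩⟩
        · convert H_empty (α := α) (k := 0) using 1
          ext w
          simp only [Set.mem_setOf_eq, Set.mem_empty_iff_false, iff_false, not_and]
          intro h1 h2
          rw [hrun w h1 i] at h2
          exact hij (Option.some.inj h2)
      · push_neg at hall
        obtain ⟨b, hb, q0, hq0⟩ := hall
        have hA : ∀ i j, H 0 {w : List α | Ov (B \ {b}) w ∧ run δ i w = some j} := by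
          intro i j
          have hlt : (B \ {b}).ncard < m := by
            rw [← hB]
            exact Set.ncard_diff_singleton_lt_of_mem hb
          exact ihm _ hlt α Q δ hm (B \ {b}) rfl hQ i j
        classical
        have hcard : Fintype.card (Im δ b) < n := by
          rw [← hQ]
          refine Fintype.card_lt_of_injective_of_notMem (fun r : Im δ b => r.2.choose) ?_
            (b := q0) ?_
          · intro r s hrs
            have h1 := r.2.choose_spec
            have h2 := s.2.choose_spec
            simp only at hrs
            rw [hrs, h2] at h1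
            exact Subtype.ext (Option.some.inj h1).symm
          · rintro ⟨r, hr⟩
            have h1 := r.2.choose_spec
            simp only at hr
            rw [hr] at h1
            exact hq0 _ h1
        have hL : ∀ q q' : Im δ b, H 0 (Pb δ b (B \ {b})
            {W | run dl q W = some q'}) := by
          intro q q'
          have h := ihn _ hcard (Set.ncard (Set.univ : Set (Im δ b → Option (Im δ b))))
            (Im δ b → Option (Im δ b)) (Im δ b) dl dl_mono Set.univ rfl rfl q q'
          obtain ⟨P, hP1, hP2⟩ := h
          have h3 := pb_sf δ b B hb hA P hP1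
          rw [hP2] at h3
          convert h3 using 2
          ext W
          simp [Ov]
        have hfirst : ∀ q : Im δ b, H 0 (cat {u : List α | Ov (B \ {b}) u ∧
            run δ i (u ++ [b]) = some q.1} {[b]}) := by
          intro q
          refine H.cat ?_ (H_letter b)
          have h := H_iUnion_prop (k := 0) (fun p : Q => δ p b = some q.1)
            (fun p => {u : List α | Ov (B \ {b}) u ∧ run δ i u = some p}) (fun p _ => hA i p)
          convert h using 1
          ext u
          simp only [Set.mem_setOf_eq]
          rw [run_append, Option.bind_eq_some_iff]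
          constructor
          · rintro ⟨h1, p, h2, h3⟩
            rw [run_single] at h3
            exact ⟨p, h3, h1, h2⟩
          · rintro ⟨p, h3, h1, h2⟩
            exact ⟨h1, p, h2, by rw [run_single]; exact h3⟩
        have key := (hA i j).union (H_iUnion (k := 0) (fun qq : Im δ b × Im δ b =>
          cat (cat {u : List α | Ov (B \ {b}) u ∧ run δ i (u ++ [b]) = some qq.1.1} {[b]})
            (cat (Pb δ b (B \ {b}) {W | run dl qq.1 W = some qq.2})
              {w : List α | Ov (B \ {b}) w ∧ run δ qq.2.1 w = some j}))
          (fun qq => (hfirst qq.1).cat ((hL qq.1 qq.2).cat (hA qq.2.1 j))))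
        convert key using 1
        ext w
        constructor
        · rintro ⟨hw, hr⟩
          obtain ⟨l, v, hl, hv, rfl⟩ := decomp b B w hw
          cases l with
          | nil => left; exact ⟨by simpa using hv, by simpa using hr⟩
          | cons u l =>
            right
            have e : flat b (u :: l) ++ v = (u ++ [b]) ++ (flat b l ++ v) := by simp
            rw [e, run_append, Option.bind_eq_some_iff] at hr
            obtain ⟨x, h1, h2⟩ := hr
            obtain ⟨q, rfl⟩ := run_b δ b u i x h1
            rw [run_append, Option.bind_eq_some_iff] at h2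
            obtain ⟨y, h3, h4⟩ := h2
            obtain ⟨q', rfl⟩ := run_flat δ b l q y h3
            rw [Set.mem_iUnion]
            refine ⟨(q, q'), u ++ [b], ⟨u, ⟨hl u (by simp), h1⟩, [b], rfl, rfl⟩,
              flat b l ++ v, ⟨flat b l, ⟨l, fun z hz => hl z (by simp [hz]), rfl, ?_⟩,
                v, ⟨hv, h4⟩, rfl⟩, e⟩
            exact (sim δ hm b l q q').2 h3
        · rintro (⟨h1, h2⟩ | h)
          · exact ⟨fun a ha => (h1 a ha).1, h2⟩
          · rw [Set.mem_iUnion] at h
            obtain ⟨⟨q, q'⟩, _, ⟨u, ⟨hu, h1⟩, w0, hw0, rfl⟩, _, ⟨_, ⟨l, hl, rfl, h2⟩, v,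
              ⟨hv, h3⟩, rfl⟩, rfl⟩ := h
            obtain rfl : w0 = [b] := hw0
            constructor
            · intro a ha
              rcases List.mem_append.1 ha with ha | ha
              · rcases List.mem_append.1 ha with ha | ha
                · exact (hu a ha).1
                · rw [List.mem_singleton] at ha; rw [ha]; exact hb
              · rcases List.mem_append.1 ha with ha | ha
                · unfold flat at ha
                  simp only [List.mem_flatten, List.mem_map] at ha
                  obtain ⟨_, ⟨z, hz, rfl⟩, ha⟩ := ha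
                  rcases List.mem_append.1 ha with ha | ha
                  · exact (hl z hz a ha).1
                  · rw [List.mem_singleton] at ha; rw [ha]; exact hb
                · exact (hv a ha).1
            · rw [run_append, h1]
              simp only [Option.bind_some]
              rw [run_append, (sim δ hm b l q q').1 h2]
              simpa using h3

/-- ROW S (Schützenberger for order preserving partial injections) -/
theorem sf_run {α Q : Type} [Fintype α] [DecidableEq α] [Fintype Q] [LinearOrder Q]
    (δ : Q → α → Option Q) (hm : Mono δ) (i j : Q) :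
    H 0 {w : List α | run δ i w = some j} := by
  have h := main (Fintype.card Q) (Set.ncard (Set.univ : Set α)) α Q δ hm Set.univ rfl rfl i j
  convert h using 1
  ext w
  simp [Ov]

end Vale.Agent.H18.P329
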